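import Vale.Agent.Lib.P021.ApproxToSin
import Vale.Agent.Lib.P021.SinToApprox

/-!
# P021: the irrationality exponent of `π` read off from the sequence `sin n`

For every real `ν₀ ≥ 1`: `μ(π) ≤ ν₀` (for every `ν > ν₀` only finitely many reduced fractions
`p / q`, `q ≥ 2`, satisfy `0 < |π - p / q| < q ^ (-ν)`) if and only if for every `κ > ν₀ - 1` only
finitely many natural numbers `n` satisfy `|sin n| < n ^ (-κ)`.
-/

namespace Vale.Agent.Results.P021.SineCriterion

open Real Vale.Agent.Lib.P021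

theorem result (ν₀ : ℝ) (h₀ : 1 ≤ ν₀) :
    (∀ ν : ℝ, ν₀ < ν →
      {a : ℤ × ℤ | IsCoprime a.1 a.2 ∧ 2 ≤ a.2 ∧ 0 < |π - (a.1 : ℝ) / (a.2 : ℝ)| ∧
        |π - (a.1 : ℝ) / (a.2 : ℝ)| < (a.2 : ℝ) ^ (-ν)}.Finite) ↔
    (∀ κ : ℝ, ν₀ - 1 < κ → {n : ℕ | |sin (n : ℝ)| < (n : ℝ) ^ (-κ)}.Finite) := by
  constructor
  · intro h κ hκ
    by_contra hinf
    have hinf' : (sinSet κ).Infinite := hinf
    have h1 := approxSet_infinite_of_sinSet (ν := (ν₀ + (1 + κ)) / 2) (κ := κ) (by linarith)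
      (by linarith) (by linarith) hinf'
    exact h1 (h _ (by linarith))
  · intro h ν hν
    by_contra hinf
    have hinf' : (approxSet ν).Infinite := hinf
    have h1 := sinSet_infinite_of_approxSet (ν := ν) (κ := ((ν₀ - 1) + (ν - 1)) / 2) (by linarith)
      (by linarith) hinf'
    exact h1 (h _ (by linarith))

end Vale.Agent.Results.P021.SineCriterion
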